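import Vale.Agent.P230.Final
import Vale.Agent.P230.PartG

/-!
P230: the worst-case translative covering density of convex bodies is at least `c n log n`.
-/

namespace Vale.Agent.Results.P230.CoveringNLogN

open Vale.Agent.P230 Filter

/-- There are an absolute constant `c > 0` and, for all large `n`, a convex body `K` in `ℝ^n` with
`θ_T(K) ≥ c n log n`; so `Θ_T(n) ≥ c n log n`, and there is no absolute constant `C` with
`θ_T(K) ≤ C n` for all convex bodies in all dimensions. -/
theorem result :
    (∃ c : ℝ, 0 < c ∧ ∀ᶠ n : ℕ in atTop,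
      (∃ K : Set (EE n), IsConvexBody K ∧ ENNReal.ofReal (c * n * Real.log n) ≤ thetaT K) ∧
      ENNReal.ofReal (c * n * Real.log n) ≤ ThetaT n) ∧
    ¬ ∃ C : ℝ, ∀ n : ℕ, 1 ≤ n → ∀ K : Set (EE n), IsConvexBody K →
      thetaT K ≤ ENNReal.ofReal (C * n) := by
  obtain ⟨c, hc, hev⟩ := final partG
  refine ⟨⟨c, hc, ?_⟩, ?_⟩
  · filter_upwards [hev] with n hn
    obtain ⟨K, hK, hle⟩ := hn
    exact ⟨⟨K, hK, hle⟩, hle.trans (le_iSup₂_of_le K hK le_rfl)⟩
  · rintro ⟨C, hC⟩
    have hlog : Tendsto (fun n : ℕ => c * Real.log n) atTop atTop :=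
      (Real.tendsto_log_atTop.comp tendsto_natCast_atTop_atTop).const_mul_atTop hc
    obtain ⟨n, ⟨K, hK, hle⟩, hn1, hn2⟩ :=
      (hev.and ((eventually_ge_atTop 1).and
        (hlog.eventually (eventually_gt_atTop (max C 0))))).exists
    have hnpos : (0 : ℝ) < n := by exact_mod_cast hn1
    have h1 := hle.trans (hC n hn1 K hK)
    have h2 : 0 < c * Real.log n := lt_of_le_of_lt (le_max_right _ _) hn2
    have h3 : ENNReal.ofReal (C * n) < ENNReal.ofReal (c * n * Real.log n) := by
      rw [ENNReal.ofReal_lt_ofReal_iff]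
      · have h4 : C < c * Real.log n := lt_of_le_of_lt (le_max_left _ _) hn2
        nlinarith
      · have : c * n * Real.log n = n * (c * Real.log n) := by ring
        rw [this]
        positivity
    exact absurd h1 (not_le.2 h3)

end Vale.Agent.Results.P230.CoveringNLogN
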